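import Mathlib

namespace Vale.Agent.Results.P183.CoreFreeReduction

/-- `L` is isomorphic to the full interval `[H, G]` of the subgroup lattice of a finite group. -/
def GroupRep (L : Type) [PartialOrder L] : Prop :=
  ∃ (G : Type) (_ : Group G) (_ : Finite G) (H : Subgroup G), Nonempty (L ≃o Set.Ici H)

/-- The same with `H` core-free: no nontrivial normal subgroup of `G` lies in `H`. -/
def CoreFreeRep (L : Type) [PartialOrder L] : Prop :=
  ∃ (G : Type) (_ : Group G) (_ : Finite G) (H : Subgroup G),
    (∀ N : Subgroup G, N.Normal → N ≤ H → N = ⊥) ∧ Nonempty (L ≃o Set.Ici H)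

theorem quot_iso {G : Type} [Group G] (H : Subgroup G) :
    Nonempty (Set.Ici H ≃o Set.Ici (H.map (QuotientGroup.mk' H.normalCore))) := by
  set N := H.normalCore with hN
  set π := QuotientGroup.mk' N with hπ
  have hsurj : Function.Surjective π := QuotientGroup.mk'_surjective N
  have hker : π.ker = N := QuotientGroup.ker_mk' N
  have hNH : N ≤ H := Subgroup.normalCore_le H
  refine ⟨{ toFun := fun K => ⟨K.1.map π, Subgroup.map_mono K.2⟩
            invFun := fun K' => ⟨K'.1.comap π, ?_⟩
            left_inv := ?_
            right_inv := ?_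
            map_rel_iff' := ?_ }⟩
  · have h1 : (H.map π).comap π ≤ K'.1.comap π := Subgroup.comap_mono K'.2
    exact (Subgroup.le_comap_map π H).trans h1
  · intro K
    apply Subtype.ext
    exact Subgroup.comap_map_eq_self (by rw [hker]; exact hNH.trans K.2)
  · intro K'
    apply Subtype.ext
    exact Subgroup.map_comap_eq_self_of_surjective hsurj K'.1
  · intro K₁ K₂
    constructor
    · intro h
      have h1 : (K₁.1.map π).comap π ≤ (K₂.1.map π).comap π := Subgroup.comap_mono h
      rw [Subgroup.comap_map_eq_self (by rw [hker]; exact hNH.trans K₁.2),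
        Subgroup.comap_map_eq_self (by rw [hker]; exact hNH.trans K₂.2)] at h1
      exact h1
    · intro h
      exact Subgroup.map_mono h

theorem quot_corefree {G : Type} [Group G] (H : Subgroup G)
    (C : Subgroup (G ⧸ H.normalCore)) (hC : C.Normal)
    (hCH : C ≤ H.map (QuotientGroup.mk' H.normalCore)) : C = ⊥ := by
  set N := H.normalCore with hN
  set π := QuotientGroup.mk' N with hπ
  have hsurj : Function.Surjective π := QuotientGroup.mk'_surjective N
  have hker : π.ker = N := QuotientGroup.ker_mk' N
  have hNH : N ≤ H := Subgroup.normalCore_le H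
  have h1 : C.comap π ≤ H := by
    have h2 : C.comap π ≤ (H.map π).comap π := Subgroup.comap_mono hCH
    rwa [Subgroup.comap_map_eq_self (by rw [hker]; exact hNH)] at h2
  have h3 : (C.comap π).Normal := hC.comap π
  have h4 : C.comap π ≤ N := (Subgroup.normal_le_normalCore (H := H)).2 h1
  have h5 : C = (C.comap π).map π := (Subgroup.map_comap_eq_self_of_surjective hsurj C).symm
  rw [h5, eq_bot_iff]
  calc (C.comap π).map π ≤ N.map π := Subgroup.map_mono h4
    _ = ⊥ := by rw [hπ]; exact QuotientGroup.map_mk'_self N

/-- A partially ordered set is an interval `[H, G]` of a finite group if and only if it is such an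
interval with `H` core-free. -/
theorem result (L : Type) [PartialOrder L] : GroupRep L ↔ CoreFreeRep L := by
  constructor
  · rintro ⟨G, _, _, H, ⟨e⟩⟩
    obtain ⟨f⟩ := quot_iso H
    exact ⟨G ⧸ H.normalCore, inferInstance, inferInstance,
      H.map (QuotientGroup.mk' H.normalCore),
      fun C hC hCH => quot_corefree H C hC hCH, ⟨e.trans f⟩⟩
  · rintro ⟨G, i1, i2, H, -, e⟩
    exact ⟨G, i1, i2, H, e⟩

end Vale.Agent.Results.P183.CoreFreeReduction
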